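import Vale.Agent.Lib.P329.Good

open Computability

/-- **Hub criterion.** Let `T` be the transition function of a complete deterministic automaton on
a finite set of states over a finite alphabet, and `q0` a state. If the automaton obtained from `T`
by making `q0` absorbing has an aperiodic transition monoid, then for all states `x, y` the language
of words leading from `x` to `y` in the original automaton has generalized star height at most
one. -/
theorem Vale.Agent.Results.P329.HubCriterion.result
    {Q α : Type} [Finite Q] [Finite α] (T : α → Q → Q) (q0 : Q)
    (h : Vale.Agent.Lib.P329.Aper (Vale.Agent.Lib.P329.absorb T q0)) (x y : Q) :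
    Vale.Agent.Lib.P329.GSHLe 1 {w : List α | Vale.Agent.Lib.P329.run T w x = y} :=
  Vale.Agent.Lib.P329.sh1_of_good h x y
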