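import Vale.Agent.Lib.P329.GroupPart

open Computability

/-- Every language recognized by a finite group `G` that has a normal abelian subgroup `A`
containing all commutators and all `p`-th powers (`p` prime) has generalized star height at most
one. This covers all dihedral groups, `S₃`, `A₄`, `Q₈`, all Frobenius groups `Z_q ⋊ Z_p`, and so on. -/
theorem Vale.Agent.Results.P329.MetabelianPrimeTop.result
    {α G : Type} [Finite α] [Group G] [Finite G] (p : ℕ) (hp : p.Prime)
    (A : Subgroup G) (hA : A.Normal) (hcomm : ∀ a ∈ A, ∀ b ∈ A, a * b = b * a)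
    (hC : ∀ g h : G, g * h * g⁻¹ * h⁻¹ ∈ A) (hP : ∀ g : G, g ^ p ∈ A)
    (φ : α → G) (S : Set G) :
    Vale.Agent.Lib.P329.GSHLe 1 {w : List α | (w.map φ).prod ∈ S} :=
  Vale.Agent.Lib.P329.gsh_group p hp A hA hcomm hC hP φ S
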