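import Vale.Agent.Lib.P329.ClassThree

open Computability

/-- Every language recognized by a finite group of nilpotency class at most three (the term of
index three of the lower central series vanishes, with the series starting at index zero from the
whole group) has generalized star height at most one. -/
theorem Vale.Agent.Results.P329.NilpotentClassThree.result
    {α G : Type} [Finite α] [Group G] [Finite G]
    (hG : (⊤ : Subgroup G).lowerCentralSeries 3 = ⊥)
    (φ : α → G) (S : Set G) :
    Vale.Agent.Lib.P329.GSHLe 1 {w : List α | (w.map φ).prod ∈ S} :=
  Vale.Agent.Lib.P329.gsh_class_three hG φ S
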