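import Vale.Agent.GSH.Groups

/-!
Every language recognized by a finite group in which all squares commute
has generalized star height at most one.
-/

namespace Vale.Agent.Results.P329.SquaresCommute

open Vale.Agent.GSH

theorem result {α G : Type} [Finite α] [Group G] [Finite G]
    (hG : ∀ x y : G, x ^ 2 * y ^ 2 = y ^ 2 * x ^ 2)
    (φ : FreeMonoid α →* G) (S : Set G) :
    ∃ e : GenRE α, e.starHeight ≤ 1 ∧
      ∀ w : List α, w ∈ e.lang ↔ φ (FreeMonoid.ofList w) ∈ S := by
  classical
  let f : α → G := fun a => φ (FreeMonoid.of a)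
  have hev : ∀ w : List α, φ (FreeMonoid.ofList w) = ev f w := by
    intro w
    induction w with
    | nil => simp [ev]
    | cons a w ih =>
      rw [ev_cons, ← ih]
      have : FreeMonoid.ofList (a :: w) = FreeMonoid.of a * FreeMonoid.ofList w := rfl
      rw [this, map_mul]
  have hm := squares_meas hG f
  have hS : HasH 1 (ofPred fun w : List α => ∃ g : {g : G // g ∈ S}, w ∈ ofPred fun w => ev f w = g.1) :=
    HasH.iUnion _ (fun g => hm g.1)
  obtain ⟨e, he, hL⟩ := hS
  refine ⟨e, he, ?_⟩
  intro w
  rw [hL, hev]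
  constructor
  · rintro ⟨⟨g, hg⟩, h⟩
    have h' : ev f w = g := h
    rw [h']
    exact hg
  · intro h
    exact ⟨⟨_, h⟩, rfl⟩

end Vale.Agent.Results.P329.SquaresCommute
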